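import Vale.Agent.P217.MathlibUsed

/-!
# P261: infinitely many classes in `H¹` of a discrete valuation ring (abstract form, helper700)
-/

namespace Vale.Agent.P261.R2.H700

theorem exists_pole {p d : ℕ} (hp : p.Prime) (hd : ¬ p ∣ d) (j : ℤ) (k : ℕ) :
    ∃ a : ℕ, p ^ k < a ∧ a ≤ 2 * p ^ k ∧ ∃ e : ℤ, j + a * d = (p : ℤ) ^ k * e := by
  have hpk : (0 : ℤ) < (p : ℤ) ^ k := by
    have := hp.pos
    positivity
  have hco : IsCoprime (d : ℤ) ((p : ℤ) ^ k) := by
    refine IsCoprime.pow_right ?_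
    rw [Nat.isCoprime_iff_coprime]
    exact ((Nat.Prime.coprime_iff_not_dvd hp).2 hd).symm
  obtain ⟨x, y, hxy⟩ := hco
  set r : ℤ := (-j * x - 1) % (p : ℤ) ^ k with hr
  have hr0 : 0 ≤ r := Int.emod_nonneg _ hpk.ne'
  have hr1 : r < (p : ℤ) ^ k := Int.emod_lt_of_pos _ hpk
  have hr2 : r = -j * x - 1 - (p : ℤ) ^ k * ((-j * x - 1) / (p : ℤ) ^ k) := Int.emod_def _ _
  obtain ⟨s, hs⟩ : ∃ s : ℕ, (s : ℤ) = r := ⟨r.toNat, Int.toNat_of_nonneg hr0⟩
  refine ⟨s + 1 + p ^ k, by omega, ?_, ?_⟩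
  · have h1 : (s : ℤ) < ((p ^ k : ℕ) : ℤ) := by
      rw [hs]
      push_cast
      exact hr1
    have h2 : s < p ^ k := by exact_mod_cast h1
    omega
  · refine ⟨j * y - ((-j * x - 1) / (p : ℤ) ^ k) * d + d, ?_⟩
    push_cast
    rw [hs, hr2]
    linear_combination (-j) * hxy

section Abs

variable {G O : Type*} [Group G] [CommRing O] {σ : G →* RingAut O} {T : G → Oˣ} {v : O}

/-- units congruent to one. -/
theorem zpow_sub_one_mem {I : Ideal O} {u : Oˣ} (hu : (u : O) - 1 ∈ I) (e : ℤ) :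
    ((u ^ e : Oˣ) : O) - 1 ∈ I := by
  have h1 : Units.map (Ideal.Quotient.mk I : O →* O ⧸ I) u = 1 := by
    apply Units.ext
    have h2 : Ideal.Quotient.mk I (u : O) = Ideal.Quotient.mk I 1 := Ideal.Quotient.eq.2 hu
    rw [map_one] at h2
    exact h2
  have h3 : Units.map (Ideal.Quotient.mk I : O →* O ⧸ I) (u ^ e) = 1 := by
    rw [map_zpow, h1, one_zpow]
  have h4 : Ideal.Quotient.mk I ((u ^ e : Oˣ) : O) = Ideal.Quotient.mk I 1 := by
    rw [map_one]
    exact congrArg Units.val h3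
  exact Ideal.Quotient.eq.1 h4

/-- the cochains. -/
theorem exists_c {p : ℕ} [Fact p.Prime] [CharP O p]
    (hT : ∀ g, (T g : O) - 1 ∈ Ideal.span {v ^ 2}) (k a : ℕ) (ha : a ≤ 2 * p ^ k) (E e : ℤ)
    (hE : E = (p : ℤ) ^ k * e) : ∃ c : G → O, ∀ g, v ^ a * c g = ((T g ^ E : Oˣ) : O) - 1 := by
  have h1 : ∀ g, ∃ y, v ^ a * y = ((T g ^ E : Oˣ) : O) - 1 := by
    intro g
    obtain ⟨y, hy⟩ := Ideal.mem_span_singleton'.1 (zpow_sub_one_mem (hT g) e)
    refine ⟨v ^ (2 * p ^ k - a) * y ^ p ^ k, ?_⟩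
    have h2 : T g ^ E = (T g ^ e) ^ (p ^ k) := by
      rw [hE, mul_comm, zpow_mul]
      exact_mod_cast rfl
    rw [h2, Units.val_pow_eq_pow_val]
    have h3 : (((T g ^ e : Oˣ) : O) ^ p ^ k - 1) = (((T g ^ e : Oˣ) : O) - 1) ^ p ^ k := by
      rw [sub_pow_char_pow, one_pow]
    rw [h3, ← hy, mul_pow, ← mul_assoc, ← pow_add, Nat.add_sub_cancel' ha, ← pow_mul, mul_comm]
  exact ⟨fun g => (h1 g).choose, fun g => (h1 g).choose_spec⟩

variable [IsDomain O] (hmul : ∀ g h, T (g * h) = T g * Units.map (σ g : O →* O) (T h))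
  {d : ℕ} (hlaw : ∀ g, ((T g ^ d : Oˣ) : O) * σ g v = v) (hv0 : v ≠ 0)

include hmul in
theorem T_zpow (g h : G) (E : ℤ) : ((T (g * h) ^ E : Oˣ) : O) =
    ((T g ^ E : Oˣ) : O) * σ g ((T h ^ E : Oˣ) : O) := by
  rw [hmul, mul_zpow, ← map_zpow]
  rfl

include hlaw in
theorem law_pow (g : G) (a : ℕ) (j : ℤ) :
    ((T g ^ (j + a * d) : Oˣ) : O) * σ g (v ^ a) = ((T g ^ j : Oˣ) : O) * v ^ a := by
  have h1 : ((T g ^ d : Oˣ) : O) ^ a * σ g (v ^ a) = v ^ a := by
    rw [map_pow, ← mul_pow, hlaw]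
  have h2 : T g ^ (j + a * d) = T g ^ j * (T g ^ d) ^ a := by
    rw [zpow_add, mul_comm (a : ℤ), zpow_mul]
    norm_cast
  rw [h2, Units.val_mul, Units.val_pow_eq_pow_val, mul_assoc, h1]

include hmul hlaw hv0 in
/-- the cocycle law. -/
theorem cocycle {a : ℕ} {j : ℤ} {c : G → O}
    (hc : ∀ g, v ^ a * c g = ((T g ^ (j + a * d) : Oˣ) : O) - 1) (g h : G) :
    c (g * h) = c g + ((T g ^ j : Oˣ) : O) * σ g (c h) := by
  have hva : v ^ a ≠ 0 := pow_ne_zero _ hv0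
  apply mul_left_cancel₀ hva
  rw [hc, mul_add, hc]
  have h1 : v ^ a * (((T g ^ j : Oˣ) : O) * σ g (c h)) =
      (((T g ^ j : Oˣ) : O) * v ^ a) * σ g (c h) := by ring
  rw [h1, ← law_pow hlaw g a j, mul_assoc, ← map_mul, hc, map_sub, map_one, T_zpow hmul]
  ring

include hlaw hv0 in
/-- the cocycles are not cohomologous. -/
theorem not_cob (hv : ¬ IsUnit v)
    (hfrac : ∀ a b : O, b ≠ 0 → (∀ g, σ g a * b = a * σ g b) → ∃ c, a = c * b)
    {a a' : ℕ} (haa' : a < a') {j : ℤ} (hE : j + a' * d ≠ 0) {c c' : G → O}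
    (hc : ∀ g, v ^ a * c g = ((T g ^ (j + a * d) : Oˣ) : O) - 1)
    (hc' : ∀ g, v ^ a' * c' g = ((T g ^ (j + a' * d) : Oˣ) : O) - 1)
    (m : O) (hm : ∀ g, c g - c' g = ((T g ^ j : Oˣ) : O) * σ g m - m) : False := by
  have hva : v ^ a' ≠ 0 := pow_ne_zero _ hv0
  set A : O := v ^ (a' - a) - 1 - m * v ^ a' with hA
  -- `A` is a twisted invariant
  have key : ∀ g, ((T g ^ (j + a' * d) : Oˣ) : O) * σ g A = A := by
    intro g
    have e1 := law_pow hlaw g a' j
    have e2 := law_pow hlaw g (a' - a) (j + a * d)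
    have e3 : j + (a : ℤ) * d + ((a' - a : ℕ) : ℤ) * d = j + a' * d := by
      push_cast [haa'.le]
      ring
    rw [e3] at e2
    have e4 : v ^ (a' - a) * v ^ a = v ^ a' := by rw [← pow_add, Nat.sub_add_cancel haa'.le]
    have e5 : ((T g ^ (j + a * d) : Oˣ) : O) * v ^ (a' - a) - v ^ (a' - a) =
        v ^ a' * c g := by
      rw [← e4, mul_assoc, hc g]
      ring
    rw [hA, map_sub, map_sub, map_one, map_mul]
    calc ((T g ^ (j + a' * d) : Oˣ) : O) * (σ g (v ^ (a' - a)) - 1 - σ g m * σ g (v ^ a'))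
        = ((T g ^ (j + a' * d) : Oˣ) : O) * σ g (v ^ (a' - a)) - ((T g ^ (j + a' * d) : Oˣ) : O)
          - σ g m * (((T g ^ (j + a' * d) : Oˣ) : O) * σ g (v ^ a')) := by ring
      _ = ((T g ^ (j + a * d) : Oˣ) : O) * v ^ (a' - a) - ((T g ^ (j + a' * d) : Oˣ) : O)
          - σ g m * (((T g ^ j : Oˣ) : O) * v ^ a') := by rw [e1, e2]
      _ = (v ^ a' * c g + v ^ (a' - a)) - (v ^ a' * c' g + 1)
          - v ^ a' * (c g - c' g + m) := by
            rw [hm g, ← e5, hc' g]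
            ring
      _ = v ^ (a' - a) - 1 - m * v ^ a' := by ring
  have hdvd : v ∣ A + 1 := by
    refine ⟨v ^ (a' - a - 1) - m * v ^ (a' - 1), ?_⟩
    have e1 : v ^ (a' - a) = v * v ^ (a' - a - 1) := by
      rw [← pow_succ']
      congr 1
      omega
    have e2 : v ^ a' = v * v ^ (a' - 1) := by
      rw [← pow_succ']
      congr 1
      omega
    rw [hA, e1, e2]
    ring
  have hAv : ¬ v ∣ A := by
    intro h
    have h1 := dvd_sub hdvd h
    rw [add_sub_cancel_left] at h1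
    exact hv (isUnit_of_dvd_one h1)
  have hA0 : A ≠ 0 := fun h => hAv (h ▸ dvd_zero v)
  have hAd : ∀ N : ℕ, v ∣ A ^ N → False := by
    intro N
    induction N with
    | zero => intro h; rw [pow_zero] at h; exact hv (isUnit_of_dvd_one h)
    | succ N ih =>
      intro h
      apply ih
      have h1 : A ^ N = (A + 1) * A ^ N - A ^ (N + 1) := by ring
      rw [h1]
      exact dvd_sub (hdvd.mul_right _) h
  set E : ℤ := j + a' * d with hEdef
  have hAd' : ∀ g, ((T g ^ (E * d) : Oˣ) : O) * σ g (A ^ d) = A ^ d := by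
    intro g
    have h1 : T g ^ (E * d) = (T g ^ E) ^ d := by
      rw [zpow_mul]
      norm_cast
    rw [h1, Units.val_pow_eq_pow_val, map_pow, ← mul_pow, key]
  rcases lt_or_gt_of_ne hE with hneg | hpos
  · -- negative exponent
    obtain ⟨N, hN⟩ : ∃ N : ℕ, (N : ℤ) = -E := ⟨(-E).toNat, Int.toNat_of_nonneg (by omega)⟩
    have hvN : ∀ g, ((T g ^ (-(E * d)) : Oˣ) : O) * σ g (v ^ N) = v ^ N := by
      intro g
      have h1 := law_pow hlaw g N 0
      rw [zero_add, zpow_zero, Units.val_one, one_mul, hN, neg_mul] at h1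
      exact h1
    obtain ⟨c0, hc0⟩ := hfrac 1 (A ^ d * v ^ N)
      (mul_ne_zero (pow_ne_zero _ hA0) (pow_ne_zero _ hv0)) (fun g => by
        rw [map_one, one_mul, one_mul, map_mul]
        have h1 := hAd' g
        have h2 := hvN g
        have h3 : ((T g ^ (E * d) : Oˣ) : O) * ((T g ^ (-(E * d)) : Oˣ) : O) = 1 := by
          rw [← Units.val_mul, ← zpow_add, add_neg_cancel, zpow_zero, Units.val_one]
        calc A ^ d * v ^ N = (((T g ^ (E * d) : Oˣ) : O) * σ g (A ^ d)) *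
              (((T g ^ (-(E * d)) : Oˣ) : O) * σ g (v ^ N)) := by rw [h1, h2]
          _ = (((T g ^ (E * d) : Oˣ) : O) * ((T g ^ (-(E * d)) : Oˣ) : O)) *
              (σ g (A ^ d) * σ g (v ^ N)) := by ring
          _ = σ g (A ^ d) * σ g (v ^ N) := by rw [h3, one_mul])
    have hN0 : N ≠ 0 := by
      rintro rfl
      omega
    apply hv
    refine isUnit_of_dvd_one ?_
    rw [hc0]
    exact ((dvd_pow_self v hN0).mul_left _).mul_left _
  · obtain ⟨N, hN⟩ : ∃ N : ℕ, (N : ℤ) = E := ⟨E.toNat, Int.toNat_of_nonneg (by omega)⟩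
    have hvN : ∀ g, ((T g ^ (E * d) : Oˣ) : O) * σ g (v ^ N) = v ^ N := by
      intro g
      have h1 := law_pow hlaw g N 0
      rw [zero_add, zpow_zero, Units.val_one, one_mul, hN] at h1
      exact h1
    obtain ⟨c0, hc0⟩ := hfrac (A ^ d) (v ^ N) (pow_ne_zero _ hv0) (fun g => by
        have h1 := hAd' g
        have h2 := hvN g
        have h3 : ((T g ^ (E * d) : Oˣ) : O) ≠ 0 := Units.ne_zero _
        apply mul_left_cancel₀ h3
        calc ((T g ^ (E * d) : Oˣ) : O) * (σ g (A ^ d) * v ^ N)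
            = (((T g ^ (E * d) : Oˣ) : O) * σ g (A ^ d)) * v ^ N := by ring
          _ = A ^ d * (((T g ^ (E * d) : Oˣ) : O) * σ g (v ^ N)) := by rw [h1, h2]
          _ = ((T g ^ (E * d) : Oˣ) : O) * (A ^ d * σ g (v ^ N)) := by ring)
    have hN0 : N ≠ 0 := by
      rintro rfl
      omega
    apply hAd d
    rw [hc0]
    exact (dvd_pow_self v hN0).mul_left _

end Abs

end Vale.Agent.P261.R2.H700
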