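import Vale.Agent.P217.Bdl.B1
import Mathlib.RingTheory.WittVector.Compare

/-!
# P261: finitely generated modules over the Lubin-Tate ring and the `p`-adic integers (helper700)
-/

namespace Vale.Agent.P261.R2.H700

open Vale.Agent.P217

/-! ### Generalities over a noetherian local ring -/

section General

variable {A : Type*} [CommRing A] {M : Type*} [AddCommGroup M] [Module A M]

/-- Krull: separatedness for the powers of an element of the maximal ideal. -/
theorem sep_gen [IsLocalRing A] [IsNoetherianRing A] [Module.Finite A M] {q : A}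
    (hq : q ∈ IsLocalRing.maximalIdeal A) (m : M) (h : ∀ N : ℕ, ∃ m' : M, m = q ^ N • m') :
    m = 0 := by
  have h1 : IsHausdorff (Ideal.span {q}) M :=
    IsHausdorff.of_le_jacobson _ _ (by
      rw [Ideal.span_singleton_le_iff_mem]
      exact IsLocalRing.maximalIdeal_le_jacobson _ hq)
  refine h1.haus' m fun N => ?_
  obtain ⟨m', hm'⟩ := h N
  rw [SModEq.zero, hm', Ideal.span_singleton_pow]
  exact Submodule.smul_mem_smul (Ideal.mem_span_singleton_self _) Submodule.mem_top

/-- completeness of finitely generated modules. -/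
theorem complete_gen [Module.Finite A M] {q : A} (hA : CA.Prec (Ideal.span {q})) (x : ℕ → M)
    (hx : ∀ k, ∃ y : M, x (k + 1) - x k = q ^ k • y) :
    ∃ m : M, ∀ k, ∃ y : M, m - x k = q ^ k • y := by
  obtain ⟨r, e, he⟩ := Module.Finite.exists_fin (R := A) (M := M)
  choose y hy using hx
  have h1 : ∀ v : M, ∃ c : Fin r → A, v = ∑ i, c i • e i := by
    intro v
    have hv : v ∈ Submodule.span A (Set.range e) := by rw [he]; exact Submodule.mem_top
    obtain ⟨c, hc⟩ := (Submodule.mem_span_range_iff_exists_fun A).1 hv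
    exact ⟨c, hc.symm⟩
  choose c hc using fun k => h1 (y k)
  have h2 : ∀ i, ∃ l, ∀ s, l - ∑ j ∈ Finset.range s, q ^ j * c j i ∈ Ideal.span {q} ^ s := by
    intro i
    refine hA (fun s => ∑ j ∈ Finset.range s, q ^ j * c j i) fun s => ?_
    rw [Finset.sum_range_succ, add_sub_cancel_left, Ideal.span_singleton_pow]
    exact Ideal.mul_mem_right _ _ (Ideal.mem_span_singleton_self _)
  choose l hl using h2
  have h3 : ∀ k, x k = x 0 + ∑ i, (∑ j ∈ Finset.range k, q ^ j * c j i) • e i := by
    intro k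
    induction k with
    | zero => simp
    | succ k ih =>
      have h4 : x (k + 1) = x k + q ^ k • y k := by rw [← hy k]; abel
      rw [h4, ih, hc k, add_assoc]
      congr 1
      rw [Finset.smul_sum, ← Finset.sum_add_distrib]
      refine Finset.sum_congr rfl fun i _ => ?_
      rw [Finset.sum_range_succ, add_smul, mul_smul]
  refine ⟨x 0 + ∑ i, l i • e i, fun k => ?_⟩
  have h5 : ∀ i, ∃ d, l i - ∑ j ∈ Finset.range k, q ^ j * c j i = q ^ k * d := by
    intro i
    have h6 := hl i k
    rw [Ideal.span_singleton_pow, Ideal.mem_span_singleton] at h6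
    exact h6
  choose d hd using h5
  refine ⟨∑ i, d i • e i, ?_⟩
  rw [h3 k, add_sub_add_left_eq_sub, ← Finset.sum_sub_distrib, Finset.smul_sum]
  refine Finset.sum_congr rfl fun i _ => ?_
  rw [← sub_smul, hd i, mul_smul]

end General

/-! ### The Lubin-Tate ring -/

section E0

variable (p n : ℕ) [Fact p.Prime]

/-- The canonical ring homomorphism `ℤ_p = W(𝔽_p) → W(𝔽_{p^n}) → E₀`. -/
noncomputable def zp : ℤ_[p] →+* P217.E0 p n :=
  (MvPowerSeries.C (σ := Fin (n - 1)) (R := WittVector p (GaloisField p n))).comp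
    ((WittVector.map (algebraMap (ZMod p) (GaloisField p n))).comp
      ((WittVector.equiv p).symm : ℤ_[p] →+* WittVector p (ZMod p)))

variable {p n}

/-- `p`-adic separatedness of finitely generated `E₀`-modules. -/
theorem sep {M : Type*} [AddCommGroup M] [Module (P217.E0 p n) M] [Module.Finite (P217.E0 p n) M]
    (m : M) (h : ∀ N : ℕ, ∃ m' : M, m = (p : P217.E0 p n) ^ N • m') : m = 0 :=
  sep_gen CA.p_mem_maximalIdeal m h

/-- `p`-adic completeness of finitely generated `E₀`-modules. -/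
theorem complete {M : Type*} [AddCommGroup M] [Module (P217.E0 p n) M]
    [Module.Finite (P217.E0 p n) M] (x : ℕ → M)
    (hx : ∀ k, ∃ y : M, x (k + 1) - x k = (p : P217.E0 p n) ^ k • y) :
    ∃ m : M, ∀ k, ∃ y : M, m - x k = (p : P217.E0 p n) ^ k • y :=
  complete_gen CA.prec_span_p x hx

/-- sums of powers of `p` in the `p`-adic integers. -/
theorem exists_padic (c : ℕ → ℤ_[p]) : ∃ a : ℤ_[p], ∀ N : ℕ, ∃ b : ℤ_[p],
    a = ∑ j ∈ Finset.range N, (p : ℤ_[p]) ^ j * c j + (p : ℤ_[p]) ^ N * b := by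
  have hA : CA.Prec (IsLocalRing.maximalIdeal ℤ_[p]) := CA.prec_iff.mpr inferInstance
  rw [PadicInt.maximalIdeal_eq_span_p] at hA
  obtain ⟨a, ha⟩ := hA (fun s => ∑ j ∈ Finset.range s, (p : ℤ_[p]) ^ j * c j) (fun s => by
    rw [Finset.sum_range_succ, add_sub_cancel_left, Ideal.span_singleton_pow]
    exact Ideal.mul_mem_right _ _ (Ideal.mem_span_singleton_self _))
  refine ⟨a, fun N => ?_⟩
  have h1 := ha N
  rw [Ideal.span_singleton_pow, Ideal.mem_span_singleton] at h1
  obtain ⟨b, hb⟩ := h1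
  exact ⟨b, by rw [← hb]; ring⟩

/-- approximation of `p`-adic integers by natural numbers. -/
theorem exists_nat (a : ℤ_[p]) (k : ℕ) : ∃ (N : ℕ) (b : ℤ_[p]), a = N + (p : ℤ_[p]) ^ k * b := by
  have h1 := PadicInt.appr_spec k a
  rw [Ideal.mem_span_singleton] at h1
  obtain ⟨b, hb⟩ := h1
  exact ⟨a.appr k, b, by rw [← hb]; ring⟩

/-- every ring endomorphism of `E₀` fixes `ℤ_p`. -/
theorem map_zp_hom (φ : P217.E0 p n →+* P217.E0 p n) (a : ℤ_[p]) : φ (zp p n a) = zp p n a := by
  rw [← sub_eq_zero]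
  refine sep (p := p) (n := n) _ fun N => ?_
  obtain ⟨m, b, h⟩ := exists_nat a N
  refine ⟨φ (zp p n b) - zp p n b, ?_⟩
  rw [h]
  simp only [map_add, map_mul, map_pow, map_natCast, smul_eq_mul]
  ring

/-- every ring automorphism of `E₀` fixes `ℤ_p`. -/
theorem map_zp (φ : RingAut (P217.E0 p n)) (a : ℤ_[p]) : φ (zp p n a) = zp p n a :=
  map_zp_hom (φ : P217.E0 p n →+* P217.E0 p n) a

/-- the reduction of `zp a`. -/
theorem red_zp (a : ℤ_[p]) : P217.red p n (zp p n a) =
    algebraMap (ZMod p) (GaloisField p n) (PadicInt.toZMod a) := by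
  obtain ⟨m, b, h⟩ := exists_nat a 1
  have hp0 : ((p : ℕ) : ZMod p) = 0 := ZMod.natCast_self p
  have hp1 : ((p : ℕ) : GaloisField p n) = 0 := CharP.cast_eq_zero _ _
  rw [h]
  simp only [map_add, map_mul, map_natCast, pow_one, hp0, hp1, zero_mul, add_zero]

theorem zp_injective : Function.Injective (zp p n) := by
  have h1 : Function.Injective (algebraMap (ZMod p) (GaloisField p n)) :=
    (algebraMap (ZMod p) (GaloisField p n)).injective
  have h2 : Function.Injective (MvPowerSeries.C (σ := Fin (n - 1))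
      (R := WittVector p (GaloisField p n))) := MvPowerSeries.C_injective
  intro a b hab
  have h3 := WittVector.map_injective _ h1 (h2 hab)
  exact (WittVector.equiv p).symm.injective h3

/-- A subgroup `V` of a finitely generated `E₀`-module, stable under `ℤ_p`, such that `V / pV` is
finite, is a finitely generated `ℤ_p`-module. -/
theorem fg_of_fin {M : Type*} [AddCommGroup M] [Module (P217.E0 p n) M]
    [Module.Finite (P217.E0 p n) M] (V : AddSubgroup M)
    (_hV : ∀ a : ℤ_[p], ∀ v ∈ V, zp p n a • v ∈ V) (S : Set M) (hS : S.Finite)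
    (hSV : ∀ s ∈ S, s ∈ V)
    (hgen : ∀ v ∈ V, ∃ s ∈ S, ∃ v' ∈ V, v = s + (p : P217.E0 p n) • v') :
    ∃ (k : ℕ) (e : Fin k → M), (∀ i, e i ∈ V) ∧
      ∀ v ∈ V, ∃ a : Fin k → ℤ_[p], v = ∑ i, zp p n (a i) • e i := by
  classical
  have hfin : Finite S := hS
  obtain ⟨k, ⟨ε⟩⟩ := Finite.exists_equiv_fin S
  refine ⟨k, fun i => (ε.symm i : M), fun i => hSV _ (ε.symm i).2, fun v hv => ?_⟩
  have h1 : ∀ w : V, ∃ x : Fin k × V, (w : M) = (ε.symm x.1 : M) + (p : P217.E0 p n) • (x.2 : M) := by
    intro w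
    obtain ⟨s, hs, v', hv', hw⟩ := hgen w w.2
    exact ⟨(ε ⟨s, hs⟩, ⟨v', hv'⟩), by simpa using hw⟩
  choose g hg using h1
  -- the iteration
  let w : ℕ → V := fun j => (fun z => (g z).2)^[j] ⟨v, hv⟩
  have hw0 : (w 0 : M) = v := rfl
  have hw : ∀ j, (w j : M) = (ε.symm (g (w j)).1 : M) + (p : P217.E0 p n) • (w (j + 1) : M) := by
    intro j
    have h2 : w (j + 1) = (g (w j)).2 := Function.iterate_succ_apply' _ _ _
    rw [h2]
    exact hg (w j)
  have h3 : ∀ N : ℕ, v = ∑ j ∈ Finset.range N, (p : P217.E0 p n) ^ j • (ε.symm (g (w j)).1 : M) +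
      (p : P217.E0 p n) ^ N • (w N : M) := by
    intro N
    induction N with
    | zero => simp [hw0]
    | succ N ih =>
      rw [Finset.sum_range_succ, pow_succ, mul_smul, add_assoc, ← smul_add, ← hw N]
      exact ih
  choose a ha using fun i : Fin k =>
    exists_padic (p := p) (fun j => if (g (w j)).1 = i then 1 else 0)
  refine ⟨a, ?_⟩
  rw [← sub_eq_zero]
  refine sep (p := p) (n := n) _ fun N => ?_
  choose b hb using fun i => ha i N
  refine ⟨(w N : M) - ∑ i, zp p n (b i) • (ε.symm i : M), ?_⟩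
  have h4 : ∑ i, zp p n (a i) • (ε.symm i : M) =
      ∑ j ∈ Finset.range N, (p : P217.E0 p n) ^ j • (ε.symm (g (w j)).1 : M) +
        (p : P217.E0 p n) ^ N • ∑ i, zp p n (b i) • (ε.symm i : M) := by
    have h5 : ∀ i, zp p n (a i) • (ε.symm i : M) =
        ∑ j ∈ Finset.range N, (if (g (w j)).1 = i then (p : P217.E0 p n) ^ j • (ε.symm i : M) else 0) +
          (p : P217.E0 p n) ^ N • zp p n (b i) • (ε.symm i : M) := by
      intro i
      rw [hb i, map_add, map_mul, map_pow, map_natCast, add_smul, mul_smul, map_sum,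
        Finset.sum_smul]
      congr 1
      refine Finset.sum_congr rfl fun j _ => ?_
      rw [map_mul, map_pow, map_natCast]
      split_ifs
      · rw [map_one, mul_one]
      · rw [map_zero, mul_zero, zero_smul]
    rw [Finset.sum_congr rfl fun i _ => h5 i, Finset.sum_add_distrib, Finset.smul_sum,
      Finset.sum_comm]
    congr 1
    refine Finset.sum_congr rfl fun j _ => ?_
    rw [Finset.sum_ite_eq]
    simp
  rw [h4, smul_sub]
  nth_rewrite 1 [h3 N]
  abel

end E0

end Vale.Agent.P261.R2.H700
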